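import Vale.Agent.P193.Diag
import Vale.Agent.P193.Kuznetsov

namespace Vale.Agent.Results.P193.NoUniversalBoth

open Vale.Agent.P193

/-- (1) No finitely generated group with decidable word problem contains every 3-generated
centre-by-metabelian group with decidable word problem.
(2) Every finitely presented simple group has decidable word problem, and no finitely presented
simple group contains every 3-generated centre-by-metabelian group with decidable word problem. -/
theorem result :
    (∀ (S : Type) [Group S], HasDecidableWP S →
      ∃ (G : Type) (_ : Group G), HasDecidableWP G ∧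
        (∃ φ : FreeGroup (Fin 3) →* G, Function.Surjective φ) ∧
        derivedSeries G 2 ≤ Subgroup.center G ∧ derivedSeries G 3 = ⊥ ∧
        ¬ ∃ f : G →* S, Function.Injective f) ∧
    (∀ (S : Type) [Group S] [IsSimpleGroup S] [Group.IsFinitelyPresented S],
      HasDecidableWP S ∧
      ∃ (G : Type) (_ : Group G), HasDecidableWP G ∧
        (∃ φ : FreeGroup (Fin 3) →* G, Function.Surjective φ) ∧
        derivedSeries G 2 ≤ Subgroup.center G ∧ derivedSeries G 3 = ⊥ ∧
        ¬ ∃ f : G →* S, Function.Injective f) :=
  ⟨fun S _ hS => main_diag S hS,
   fun S _ _ _ => ⟨decidableWP_of_fp_simple S, main_diag S (decidableWP_of_fp_simple S)⟩⟩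

end Vale.Agent.Results.P193.NoUniversalBoth
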