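import Vale.Agent.P193.Diag

namespace Vale.Agent.Results.P193.NoUniversalContainer

open Vale.Agent.P193

/-- No finitely generated group with decidable word problem contains every 3-generated
centre-by-metabelian group with decidable word problem. -/
theorem result (S : Type) [Group S] (hS : HasDecidableWP S) :
    ∃ (G : Type) (_ : Group G), HasDecidableWP G ∧
      (∃ φ : FreeGroup (Fin 3) →* G, Function.Surjective φ) ∧
      derivedSeries G 2 ≤ Subgroup.center G ∧ derivedSeries G 3 = ⊥ ∧
      ¬ ∃ f : G →* S, Function.Injective f :=
  main_diag S hS

end Vale.Agent.Results.P193.NoUniversalContainer
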