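import Vale.Agent.P193.Diag
import Vale.Agent.P193.Kuznetsov

namespace Vale.Agent.Results.P193.NoUniversalSimple

open Vale.Agent.P193

/-- No finitely presented simple group contains every 3-generated centre-by-metabelian group with
decidable word problem. -/
theorem result (S : Type) [Group S] [IsSimpleGroup S] [Group.IsFinitelyPresented S] :
    ∃ (G : Type) (_ : Group G), HasDecidableWP G ∧
      (∃ φ : FreeGroup (Fin 3) →* G, Function.Surjective φ) ∧
      derivedSeries G 2 ≤ Subgroup.center G ∧ derivedSeries G 3 = ⊥ ∧
      ¬ ∃ f : G →* S, Function.Injective f :=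
  main_diag S (decidableWP_of_fp_simple S)

end Vale.Agent.Results.P193.NoUniversalSimple
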